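import Vale.Agent.P159.T1.S.H568.LocB
import Vale.Agent.P159.T1.S.H711.Hv2

/-!
P159: below the critical point the heights are localized, uniformly in the domain.
-/

open MeasureTheory Filter Topology

namespace Vale.Agent.P159.T1.S.Loc

open Vale.Agent.P159 Vale.Agent.P159.H353 Vale.Agent.P159.R2.H254 Vale.Agent.P159.T1.H857
open Vale.Agent.P159.T1.D Vale.Agent.P159.T1.H910
open Vale.Agent.P159.T1.H532 (Gw)
open Vale.Agent.P159.T1.H568 (rc mem_rc RA RE)

variable {w T' : ℕ} {b : ℝ}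

lemma CI_exp (hb : 0 < b) (x y : Z2) {n : ℤ} (hn : n ≤ XY.nm (y - x)) :
    XY.CI b x y ≤ Real.exp (-(mass b * n)) := by
  rw [XY.CI_eq hb.le]
  refine (XY.C_le_exp hb _).trans (Real.exp_le_exp.2 (neg_le_neg ?_))
  have h : (n : ℝ) ≤ (XY.nm (y - x) : ℝ) := by exact_mod_cast hn
  exact mul_le_mul_of_nonneg_left h (XY.mass_nonneg hb)

/-- two bonds of one horizontal line of faces -/
theorem horiz_exp (hb : 0 < b) {x y t : ℤ} (hxy : x < y) (he : (((x, t) : Z2), true) ∈ bd (rc w T'))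
    (he' : (((y, t) : Z2), true) ∈ bd (rc w T')) :
    |E b (rc w T') fun h => (dh h ((x, t), true) : ℝ) * (dh h ((y, t), true) : ℝ)| ≤
      b * b * Real.exp (-(2 * mass b * (y - x))) := by
  have h1 := grad_grad_le hb.le he he' (by
    intro h
    simp only [Prod.mk.injEq, and_true] at h
    omega)
  refine h1.trans (mul_le_mul_of_nonneg_left ?_ (by positivity))
  have e : Real.exp (-(2 * mass b * (y - x))) =
      Real.exp (-(mass b * ((y - x : ℤ) : ℝ))) * Real.exp (-(mass b * ((y - x : ℤ) : ℝ))) := by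
    rw [← Real.exp_add]
    congr 1
    push_cast
    ring
  rw [e]
  have c1 : ∀ s s' : ℤ, XY.CI b ((x, s) : Z2) ((y, s') : Z2) ≤
      Real.exp (-(mass b * ((y - x : ℤ) : ℝ))) := by
    intro s s'
    refine CI_exp hb _ _ ?_
    unfold XY.nm
    simp only [Prod.mk_sub_mk]
    omega
  refine max_le ?_ ?_
  · exact mul_le_mul (c1 _ _) (c1 _ _) (XY.CI_nonneg hb.le _ _) (Real.exp_pos _).le
  · exact mul_le_mul (c1 _ _) (c1 _ _) (XY.CI_nonneg hb.le _ _) (Real.exp_pos _).le

/-- summability of the product of two different gradients -/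
lemma summable_gg (hb : 0 ≤ b) {e e' : Bnd} (he : e ∈ bd (rc w T')) (he' : e' ∈ bd (rc w T'))
    (hne : e ≠ e') : Summable fun h : Ht (rc w T') => D.wt b (rc w T') 0 h.1 *
      ((dh h.1 e : ℝ) * (dh h.1 e' : ℝ)) := by
  classical
  have h1 := (hasSum_cur (H := Ht (rc w T')) fp fq (J := fun _ : RE (bd (rc w T')) => b)
    (fun _ => hb) (cF w T') cF_inj cF_iff (e := ⟨e, he⟩) (e' := ⟨e', he'⟩)
    (fun h => hne (congrArg Subtype.val h))).summable
  refine h1.congr fun h => ?_
  rw [wt_Gw]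
  rfl

lemma tel (f : ℤ → ℤ) (x : ℤ) (n : ℕ) :
    ∑ i ∈ Finset.range n, (f (x + 1 + i - 1) - f (x + 1 + i)) = f x - f (x + n) := by
  induction n with
  | zero => simp
  | succ n ih =>
    rw [Finset.sum_range_succ, ih]
    rw [show x + 1 + (n : ℤ) - 1 = x + n by ring, show x + 1 + (n : ℤ) = x + ((n + 1 : ℕ) : ℤ) by
      push_cast; ring]
    ring

lemma tel' (f : ℤ → ℤ) (x : ℤ) (n : ℕ) :
    ∑ i ∈ Finset.range n, (f (x - i - 1) - f (x - i)) = f (x - n) - f x := by
  induction n with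
  | zero => simp
  | succ n ih =>
    rw [Finset.sum_range_succ, ih]
    rw [show x - (n : ℤ) - 1 = x - ((n + 1 : ℕ) : ℤ) by push_cast; ring]
    ring

/-- the height as a sum of gradients to the right -/
lemma right_sum (h : Ht (rc w T')) {y t : ℤ} (hy : ((y, t) : Z2) ∈ rc w T') :
    h.1 (y, t) = ∑ i ∈ Finset.range (w - y).toNat, dh h.1 ((y + 1 + i, t), true) := by
  have hy' := mem_rc.1 hy
  simp only at hy'
  have h1 := tel (fun x => h.1 (x, t)) y (w - y).toNat
  have h2 : h.1 (y + ((w - y).toNat : ℤ), t) = 0 := by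
    apply h.2
    rw [mem_rc]
    simp only
    omega
  rw [h2, sub_zero] at h1
  rw [← h1]
  rfl

/-- the height as a sum of gradients to the left -/
lemma left_sum (h : Ht (rc w T')) {x t : ℤ} (hx : ((x, t) : Z2) ∈ rc w T') :
    h.1 (x, t) = -∑ i ∈ Finset.range (x + 1).toNat, dh h.1 ((x - i, t), true) := by
  have hx' := mem_rc.1 hx
  simp only at hx'
  have h1 := tel' (fun x => h.1 (x, t)) x (x + 1).toNat
  have h2 : h.1 (x - ((x + 1).toNat : ℤ), t) = 0 := by
    apply h.2
    rw [mem_rc]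
    simp only
    omega
  rw [h2, zero_sub] at h1
  rw [← neg_eq_iff_eq_neg, ← h1]
  rfl

lemma geo (r : ℝ) (hr0 : 0 ≤ r) (hr : r < 1) (n : ℕ) :
    ∑ i ∈ Finset.range n, r ^ i ≤ (1 - r)⁻¹ := by
  rw [← tsum_geometric_of_lt_one hr0 hr]
  exact (summable_geometric_of_lt_one hr0 hr).sum_le_tsum _ fun i _ => pow_nonneg hr0 i

/-- **exponential decay of the covariance of the heights**, uniformly in the rectangle -/
theorem cov_exp (hb : 0 < b) (hm : 0 < mass b) {x y t : ℤ} (hxy : x ≤ y)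
    (hx : ((x, t) : Z2) ∈ rc w T') (hy : ((y, t) : Z2) ∈ rc w T') :
    |E b (rc w T') fun h => (h (x, t) : ℝ) * (h (y, t) : ℝ)| ≤
      b * b * Real.exp (-(2 * mass b * (y - x + 1))) / (1 - Real.exp (-(2 * mass b))) ^ 2 := by
  classical
  have hx' := mem_rc.1 hx
  have hy' := mem_rc.1 hy
  simp only at hx' hy'
  set r : ℝ := Real.exp (-(2 * mass b)) with hr
  have hr0 : 0 ≤ r := (Real.exp_pos _).le
  have hr1 : r < 1 := by rw [hr, Real.exp_lt_one_iff]; linarith
  set n := (w - y).toNat with hn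
  set m := (x + 1).toNat with hmm
  set F : ℕ → ℕ → (Z2 → ℤ) → ℝ := fun i j h =>
    (dh h ((x - j, t), true) : ℝ) * (dh h ((y + 1 + i, t), true) : ℝ) with hF
  have mem1 : ∀ i ∈ Finset.range n, (((y + 1 + i, t) : Z2), true) ∈ bd (rc w T') := by
    intro i hi
    rw [Finset.mem_range] at hi
    rw [mem_bdR]
    simp only [true_and, reduceCtorEq, false_and, or_false]
    omega
  have mem2 : ∀ j ∈ Finset.range m, (((x - j, t) : Z2), true) ∈ bd (rc w T') := by
    intro j hj
    rw [Finset.mem_range] at hj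
    rw [mem_bdR]
    simp only [true_and, reduceCtorEq, false_and, or_false]
    omega
  have hne : ∀ i j : ℕ, (((x - j, t) : Z2), true) ≠ (((y + 1 + i, t) : Z2), true) := by
    intro i j h
    simp only [Prod.mk.injEq, and_true] at h
    omega
  have hsum : ∀ i ∈ Finset.range n, ∀ j ∈ Finset.range m,
      Summable fun h : Ht (rc w T') => D.wt b (rc w T') 0 h.1 * F i j h.1 := fun i hi j hj =>
    summable_gg hb.le (mem2 j hj) (mem1 i hi) (hne i j)
  have h1 : (E b (rc w T') fun h => (h (x, t) : ℝ) * (h (y, t) : ℝ)) =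
      -∑ i ∈ Finset.range n, ∑ j ∈ Finset.range m, E b (rc w T') (F i j) := by
    unfold D.E
    simp only [← Finset.sum_div]
    rw [← neg_div]
    congr 1
    have e1 : ∀ i ∈ Finset.range n, ∑ j ∈ Finset.range m,
        ∑' h : Ht (rc w T'), D.wt b (rc w T') 0 h.1 * F i j h.1 =
        ∑' h : Ht (rc w T'), ∑ j ∈ Finset.range m, D.wt b (rc w T') 0 h.1 * F i j h.1 :=
      fun i hi => (Summable.tsum_finsetSum fun j hj => hsum i hi j hj).symm
    rw [Finset.sum_congr rfl e1, ← Summable.tsum_finsetSum fun i hi => summable_sum (hsum i hi),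
      ← tsum_neg]
    refine tsum_congr fun h => ?_
    have e2 : ((h.1 (x, t) : ℤ) : ℝ) = -∑ j ∈ Finset.range m, (dh h.1 ((x - j, t), true) : ℝ) := by
      rw [left_sum h hx]
      push_cast
      rfl
    have e3 : ((h.1 (y, t) : ℤ) : ℝ) = ∑ i ∈ Finset.range n, (dh h.1 ((y + 1 + i, t), true) : ℝ) := by
      rw [right_sum h hy]
      push_cast
      rfl
    rw [e2, e3, neg_mul, mul_neg, Finset.sum_mul_sum, Finset.sum_comm]
    simp only [hF, Finset.mul_sum]
  rw [h1, abs_neg]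
  have h2 : ∀ i ∈ Finset.range n, ∀ j ∈ Finset.range m, |E b (rc w T') (F i j)| ≤
      b * b * Real.exp (-(2 * mass b * (y - x + 1))) * (r ^ i * r ^ j) := by
    intro i hi j hj
    refine (horiz_exp (w := w) (T' := T') hb (x := x - j) (y := y + 1 + i) (t := t) (by omega)
      (mem2 j hj) (mem1 i hi)).trans (le_of_eq ?_)
    rw [mul_assoc (b * b)]
    congr 1
    rw [hr, ← Real.exp_nat_mul, ← Real.exp_nat_mul, ← Real.exp_add, ← Real.exp_add]
    congr 1
    push_cast
    ring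
  calc |∑ i ∈ Finset.range n, ∑ j ∈ Finset.range m, E b (rc w T') (F i j)|
      ≤ ∑ i ∈ Finset.range n, ∑ j ∈ Finset.range m, |E b (rc w T') (F i j)| :=
        (Finset.abs_sum_le_sum_abs _ _).trans (Finset.sum_le_sum fun i _ =>
          Finset.abs_sum_le_sum_abs _ _)
    _ ≤ ∑ i ∈ Finset.range n, ∑ j ∈ Finset.range m,
        b * b * Real.exp (-(2 * mass b * (y - x + 1))) * (r ^ i * r ^ j) :=
        Finset.sum_le_sum fun i hi => Finset.sum_le_sum fun j hj => h2 i hi j hj
    _ = b * b * Real.exp (-(2 * mass b * (y - x + 1))) *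
        ((∑ i ∈ Finset.range n, r ^ i) * ∑ j ∈ Finset.range m, r ^ j) := by
        rw [Finset.sum_mul_sum, Finset.mul_sum]
        exact Finset.sum_congr rfl fun i _ => by rw [Finset.mul_sum]
    _ ≤ b * b * Real.exp (-(2 * mass b * (y - x + 1))) * ((1 - r)⁻¹ * (1 - r)⁻¹) := by
        refine mul_le_mul_of_nonneg_left ?_ (by positivity)
        exact mul_le_mul (geo r hr0 hr1 n) (geo r hr0 hr1 m)
          (Finset.sum_nonneg fun i _ => pow_nonneg hr0 i) (by
            rw [inv_nonneg]; linarith)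
    _ = _ := by
        rw [div_eq_mul_inv, pow_two (1 - r), mul_inv]

/-- **localization**: below the critical point the variance of the height is bounded, uniformly in
the finite domain and in the face -/
theorem loc_hv (b : ℝ) (hb : 0 < b) (hc : b < bCrit) : ∀ (U : Finset Z2) (x : Z2),
    Hv.hv b U x ≤ b ^ 2 * Real.exp (-(2 * mass b)) / (1 - Real.exp (-(2 * mass b))) ^ 2 := by
  intro U x
  have hm := XY.mass_pos_of_lt_bCrit hb hc
  obtain ⟨n, hn⟩ : ∃ n : ℕ, U ⊆ Hv.bx x n := by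
    refine ⟨U.sup fun f => XY.nm (f - x), fun f hf => ?_⟩
    have h := Finset.le_sup (f := fun f => XY.nm (f - x)) hf
    generalize U.sup (fun f => XY.nm (f - x)) = N at h ⊢
    rw [Hv.mem_bx]
    unfold XY.nm at h
    simp only [Prod.fst_sub, Prod.snd_sub] at h
    omega
  have h1 : Hv.bx (((n : ℤ), (n : ℤ)) : Z2) n = rc (2 * n + 1) (2 * n + 1) := by
    ext f
    rw [Hv.mem_bx, mem_rc]
    simp only
    push_cast
    omega
  have h2 : ((((n : ℤ), (n : ℤ)) : Z2)) ∈ rc (2 * n + 1) (2 * n + 1) := by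
    rw [mem_rc]
    simp only
    push_cast
    omega
  refine (Hv.hv_mono hb.le hn x).trans ?_
  rw [Hv.hv_bx, ← Hv.hv_bx b ((n : ℤ), (n : ℤ)) n, h1]
  have h3 := cov_exp hb hm le_rfl h2 h2
  have h4 : Hv.hv b (rc (2 * n + 1) (2 * n + 1)) ((n : ℤ), (n : ℤ)) =
      E b (rc (2 * n + 1) (2 * n + 1)) fun h => (h ((n : ℤ), (n : ℤ)) : ℝ) *
        (h ((n : ℤ), (n : ℤ)) : ℝ) := by
    unfold Hv.hv
    congr 1
    funext h
    rw [pow_two]
  rw [h4]
  refine (le_abs_self _).trans (h3.trans (le_of_eq ?_))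
  rw [sub_self, zero_add, mul_one, pow_two b]

end Vale.Agent.P159.T1.S.Loc
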