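import Vale.Agent.P159.T1.H857.CorrDual
import Vale.Agent.P159.T1.H731.Fou
import Vale.Agent.P159.T1.H532.Var

/-!
P159: the correlation of the currents of two different bonds in a finite graph with free boundary is
bounded by products of two-point functions (Ginibre and the four-point inequality).
-/

open MeasureTheory Filter Topology

namespace Vale.Agent.P159.T1.S.Loc

open Vale.Agent.P159 Vale.Agent.P159.H353 Vale.Agent.P159.R2.H254 Vale.Agent.P159.T1.H857
open Vale.Agent.P159.T1.H532 (Gw Gw_rec dl)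
open Vale.Agent.P159.T1.H731 (fourier_arg_sum fourier_smul)

section spin

variable {A : Type*} [Fintype A]

/-- the covariance of the sines of two differences -/
theorem sin_sin_le (J : A → A → ℝ) (hJ : ∀ u v, 0 ≤ J u v) (a b c d : A) :
    |XY.ev J (fun θ => XY.ct ((θ a - θ b) + (θ c - θ d))) -
      XY.ev J (fun θ => XY.ct ((θ a - θ b) - (θ c - θ d)))| ≤
    2 * max (XY.corr J a d * XY.corr J b c) (XY.corr J a c * XY.corr J b d) := by
  have h1 := XY.four_point J hJ a c b d
  have h2 := XY.four_point J hJ a d b c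
  have h3 := XY.ev_ginibre J hJ (XY.isChar_diff a b) (XY.isChar_diff c d)
  have e1 : (fun θ : A → T => XY.ct (θ a + θ c - θ b - θ d)) =
      fun θ => XY.ct ((θ a - θ b) + (θ c - θ d)) := by
    funext θ
    congr 1
    abel
  have e2 : (fun θ : A → T => XY.ct (θ a + θ d - θ b - θ c)) =
      fun θ => XY.ct ((θ a - θ b) - (θ c - θ d)) := by
    funext θ
    congr 1
    abel
  have e3 : XY.ev J (fun θ => XY.ct (θ a - θ b) * XY.ct (θ c - θ d)) =
      1 / 2 * (XY.ev J (fun θ => XY.ct ((θ a - θ b) + (θ c - θ d))) +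
        XY.ev J (fun θ => XY.ct ((θ a - θ b) - (θ c - θ d)))) := by
    rw [← XY.ev_add J (by fun_prop) (by fun_prop), ← XY.ev_const_mul]
    congr 1
    funext θ
    rw [XY.ct_add (θ a - θ b), XY.ct_sub (θ a - θ b) (θ c - θ d)]
    ring
  rw [e1] at h1
  rw [e2] at h2
  rw [e3] at h3
  change XY.corr J a b * XY.corr J c d ≤ _ at h3
  rw [XY.corr_comm J d c] at h2
  rw [XY.corr_comm J c b] at h1
  rw [XY.corr_comm J d b] at h2
  have m1 := le_max_left (XY.corr J a d * XY.corr J b c) (XY.corr J a c * XY.corr J b d)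
  have m2 := le_max_right (XY.corr J a d * XY.corr J b c) (XY.corr J a c * XY.corr J b d)
  rw [abs_le]
  constructor <;> linarith

end spin

section cur

variable {A E : Type} [Fintype A] [DecidableEq A] [Fintype E]

/-- the charges of a current paired with the spins -/
lemma sum_dvA (p q : E → A) (k : E → ℤ) (θ : A → T) :
    ∑ v, dvA p q k v • θ v = ∑ e, k e • (θ (p e) - θ (q e)) := by
  unfold dvA
  simp only [Finset.sum_smul]
  rw [Finset.sum_comm]
  refine Finset.sum_congr rfl fun e _ => ?_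
  have h : ∀ v, ((if p e = v then k e else 0) + (if q e = v then -k e else 0)) • θ v =
      (if p e = v then k e • θ v else 0) - (if q e = v then k e • θ v else 0) := by
    intro v
    by_cases h1 : p e = v <;> by_cases h2 : q e = v <;> simp [h1, h2]
  rw [Finset.sum_congr rfl fun v _ => h v, Finset.sum_sub_distrib, Finset.sum_ite_eq,
    Finset.sum_ite_eq, if_pos (Finset.mem_univ _), if_pos (Finset.mem_univ _), smul_sub]

omit [Fintype A] in
lemma dvA_sub (p q : E → A) (n k : E → ℤ) (v : A) :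
    dvA p q (n - k) v = dvA p q n v - dvA p q k v := by
  unfold dvA
  rw [← Finset.sum_sub_distrib]
  refine Finset.sum_congr rfl fun e _ => ?_
  simp only [Pi.sub_apply]
  split_ifs <;> ring

omit [DecidableEq A] in
/-- the real part of the integral with charges `m` -/
theorem ZG_re [DecidableEq A] (p q : E → A) (J : E → ℝ) (m : A → ℤ) :
    (ZG (fun e => some (p e)) (fun e => some (q e)) J 0 m).re =
      XY.un (matJ p q J) (fun θ => XY.ct (∑ v, m v • θ v)) := by
  unfold ZG XY.un
  have hpr : ∀ θ : A → T, ∏ v, (fourier (m v) (θ v) : ℂ) = (fourier 1 (∑ v, m v • θ v) : ℂ) := by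
    intro θ
    rw [fourier_arg_sum]
    exact Finset.prod_congr rfl fun v _ => fourier_smul _ _
  simp only [ZG_integrand, hpr]
  have hc : Continuous fun θ : A → T => (fourier 1 (∑ v, m v • θ v) : ℂ) *
      ((Real.exp (XY.energy (matJ p q J) θ) : ℝ) : ℂ) := by
    refine Continuous.mul ((fourier 1).continuous.comp (continuous_finsetSum _ fun v _ =>
      (continuous_apply v).zsmul (m v))) ?_
    exact Complex.continuous_ofReal.comp (cont_matJ p q J)
  have : IsProbabilityMeasure (torusHaar A) := by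
    unfold torusHaar; infer_instance
  have hi : Integrable (fun θ : A → T => (fourier 1 (∑ v, m v • θ v) : ℂ) *
      ((Real.exp (XY.energy (matJ p q J) θ) : ℝ) : ℂ)) (torusHaar A) :=
    hc.integrable_of_hasCompactSupport (HasCompactSupport.of_compactSpace _)
  have h1 := integral_re (𝕜 := ℂ) hi
  have h2 : (∫ θ : A → T, (fourier 1 (∑ v, m v • θ v) : ℂ) *
      ((Real.exp (XY.energy (matJ p q J) θ) : ℝ) : ℂ) ∂torusHaar A).re =
      ∫ θ : A → T, ((fourier 1 (∑ v, m v • θ v) : ℂ) *
      ((Real.exp (XY.energy (matJ p q J) θ) : ℝ) : ℂ)).re ∂torusHaar A := h1.symm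
  rw [h2]
  refine integral_congr_ae (Eventually.of_forall fun θ => ?_)
  simp only
  rw [Complex.re_mul_ofReal, fourier_one_re]
  rfl

variable {H : Type}

/-- sum over the currents shifted by `k` -/
theorem hasSum_shift (p q : E → A) {J : E → ℝ} (hJ : ∀ e, 0 ≤ J e) (c0 : H → E → ℤ)
    (h0 : Function.Injective c0) (e0 : ∀ n : E → ℤ, (∀ v, dvA p q n v = 0) ↔ ∃ h, c0 h = n)
    (k : E → ℤ) :
    HasSum (fun h : H => Gw J (c0 h + k))
      (XY.un (matJ p q J) (fun θ => XY.ct (∑ e, k e • (θ (p e) - θ (q e))))) := by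
  have h1 := hasSum_re_of p q hJ (fun v => -dvA p q k v) (fun h => c0 h + k)
    (fun h h' hh => h0 (add_right_cancel hh)) (fun n => by
      have h2 := e0 (n - k)
      simp only [dvA_sub] at h2
      constructor
      · intro h3
        obtain ⟨h, hh⟩ := h2.1 fun v => by have := h3 v; linarith
        exact ⟨h, by rw [hh]; abel⟩
      · rintro ⟨h, rfl⟩ v
        have := h2.2 ⟨h, by abel⟩ v
        linarith)
  rw [ZG_re] at h1
  have h3 : (fun θ : A → T => XY.ct (∑ v, (-dvA p q k v) • θ v)) =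
      fun θ => XY.ct (∑ e, k e • (θ (p e) - θ (q e))) := by
    funext θ
    rw [← sum_dvA, ← XY.ct_neg, ← Finset.sum_neg_distrib]
    congr 1
    exact Finset.sum_congr rfl fun v _ => by rw [neg_smul, neg_neg]
  rw [h3] at h1
  exact h1

omit [Fintype A] [DecidableEq A] in
lemma sum_two [DecidableEq E] (p q : E → A) (e e' : E) (s s' : ℤ) (θ : A → T) :
    ∑ f, (s • dl e + s' • dl e') f • (θ (p f) - θ (q f)) =
      s • (θ (p e) - θ (q e)) + s' • (θ (p e') - θ (q e')) := by
  have h : ∀ (x : E) (t : ℤ), ∑ f, (t • dl x : E → ℤ) f • (θ (p f) - θ (q f)) =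
      t • (θ (p x) - θ (q x)) := by
    intro x t
    rw [Finset.sum_eq_single x]
    · simp [dl]
    · intro f _ hf
      have : (t • dl x : E → ℤ) f = 0 := by
        simp [dl, Pi.single_eq_of_ne hf]
      rw [this, zero_smul]
    · intro h
      exact absurd (Finset.mem_univ _) h
  rw [← h e s, ← h e' s', ← Finset.sum_add_distrib]
  exact Finset.sum_congr rfl fun f _ => by rw [Pi.add_apply, add_smul]

/-- **current-current correlation** -/
theorem hasSum_cur [DecidableEq E] (p q : E → A) {J : E → ℝ} (hJ : ∀ e, 0 ≤ J e)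
    (c0 : H → E → ℤ) (h0 : Function.Injective c0)
    (e0 : ∀ n : E → ℤ, (∀ v, dvA p q n v = 0) ↔ ∃ h, c0 h = n) {e e' : E} (hne : e ≠ e') :
    HasSum (fun h : H => Gw J (c0 h) * ((c0 h e : ℝ) * (c0 h e' : ℝ)))
      (J e * J e' / 2 * (XY.un (matJ p q J) (fun θ =>
          XY.ct ((θ (p e) - θ (q e)) + (θ (p e') - θ (q e')))) -
        XY.un (matJ p q J) (fun θ =>
          XY.ct ((θ (p e) - θ (q e)) - (θ (p e') - θ (q e')))))) := by
  have key : ∀ n : E → ℤ, Gw J n * ((n e : ℝ) * (n e' : ℝ)) = J e * J e' / 4 *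
      (Gw J (n + ((-1 : ℤ) • dl e + (-1 : ℤ) • dl e')) -
        Gw J (n + ((-1 : ℤ) • dl e + (1 : ℤ) • dl e')) -
        Gw J (n + ((1 : ℤ) • dl e + (-1 : ℤ) • dl e')) +
        Gw J (n + ((1 : ℤ) • dl e + (1 : ℤ) • dl e'))) := by
    intro n
    have g1 := Gw_rec hJ n e
    have g2 := Gw_rec hJ (n - dl e) e'
    have g3 := Gw_rec hJ (n + dl e) e'
    have z : dl e e' = 0 := by unfold dl; exact Pi.single_eq_of_ne hne.symm 1
    rw [Pi.sub_apply, z, sub_zero] at g2
    rw [Pi.add_apply, z, add_zero] at g3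
    have a1 : n + ((-1 : ℤ) • dl e + (-1 : ℤ) • dl e') = n - dl e - dl e' := by
      simp only [neg_smul, one_smul]; abel
    have a2 : n + ((-1 : ℤ) • dl e + (1 : ℤ) • dl e') = n - dl e + dl e' := by
      simp only [neg_smul, one_smul]; abel
    have a3 : n + ((1 : ℤ) • dl e + (-1 : ℤ) • dl e') = n + dl e - dl e' := by
      simp only [neg_smul, one_smul]; abel
    have a4 : n + ((1 : ℤ) • dl e + (1 : ℤ) • dl e') = n + dl e + dl e' := by
      simp only [one_smul]; abel
    rw [a1, a2, a3, a4]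
    linear_combination (n e' : ℝ) * g1 + J e / 2 * (g2 - g3)
  have hs := fun s s' : ℤ => hasSum_shift p q hJ c0 h0 e0 (s • dl e + s' • dl e')
  simp only [sum_two] at hs
  have h1 := ((((hs (-1) (-1)).sub (hs (-1) 1)).sub (hs 1 (-1))).add (hs 1 1)).mul_left
    (J e * J e' / 4)
  have f1 : (fun θ : A → T => XY.ct ((-1 : ℤ) • (θ (p e) - θ (q e)) +
      (-1 : ℤ) • (θ (p e') - θ (q e')))) =
      fun θ => XY.ct ((θ (p e) - θ (q e)) + (θ (p e') - θ (q e'))) := by
    funext θ
    rw [← XY.ct_neg]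
    congr 1
    simp only [neg_smul, one_smul]
    abel
  have f2 : (fun θ : A → T => XY.ct ((-1 : ℤ) • (θ (p e) - θ (q e)) +
      (1 : ℤ) • (θ (p e') - θ (q e')))) =
      fun θ => XY.ct ((θ (p e) - θ (q e)) - (θ (p e') - θ (q e'))) := by
    funext θ
    rw [← XY.ct_neg]
    congr 1
    simp only [neg_smul, one_smul]
    abel
  have f3 : (fun θ : A → T => XY.ct ((1 : ℤ) • (θ (p e) - θ (q e)) +
      (-1 : ℤ) • (θ (p e') - θ (q e')))) =
      fun θ => XY.ct ((θ (p e) - θ (q e)) - (θ (p e') - θ (q e'))) := by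
    funext θ
    congr 1
    simp only [neg_smul, one_smul]
    abel
  have f4 : (fun θ : A → T => XY.ct ((1 : ℤ) • (θ (p e) - θ (q e)) +
      (1 : ℤ) • (θ (p e') - θ (q e')))) =
      fun θ => XY.ct ((θ (p e) - θ (q e)) + (θ (p e') - θ (q e'))) := by
    funext θ
    simp only [one_smul]
  rw [f1, f2, f3, f4] at h1
  have h2 : (fun h : H => Gw J (c0 h) * ((c0 h e : ℝ) * (c0 h e' : ℝ))) = fun h => J e * J e' / 4 *
      (Gw J (c0 h + ((-1 : ℤ) • dl e + (-1 : ℤ) • dl e')) -
        Gw J (c0 h + ((-1 : ℤ) • dl e + (1 : ℤ) • dl e')) -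
        Gw J (c0 h + ((1 : ℤ) • dl e + (-1 : ℤ) • dl e')) +
        Gw J (c0 h + ((1 : ℤ) • dl e + (1 : ℤ) • dl e'))) := by
    funext h
    exact key (c0 h)
  rw [h2]
  have e5 : J e * J e' / 2 * (XY.un (matJ p q J) (fun θ =>
          XY.ct ((θ (p e) - θ (q e)) + (θ (p e') - θ (q e')))) -
        XY.un (matJ p q J) (fun θ =>
          XY.ct ((θ (p e) - θ (q e)) - (θ (p e') - θ (q e'))))) = J e * J e' / 4 *
      (XY.un (matJ p q J) (fun θ => XY.ct ((θ (p e) - θ (q e)) + (θ (p e') - θ (q e')))) -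
        XY.un (matJ p q J) (fun θ => XY.ct ((θ (p e) - θ (q e)) - (θ (p e') - θ (q e')))) -
        XY.un (matJ p q J) (fun θ => XY.ct ((θ (p e) - θ (q e)) - (θ (p e') - θ (q e')))) +
        XY.un (matJ p q J) (fun θ => XY.ct ((θ (p e) - θ (q e)) + (θ (p e') - θ (q e'))))) := by
    ring
  rw [e5]
  exact h1

/-- **bound for the current-current correlation** -/
theorem cur_le [DecidableEq E] (p q : E → A) {J : E → ℝ} (hJ : ∀ e, 0 ≤ J e)
    (c0 : H → E → ℤ) (h0 : Function.Injective c0)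
    (e0 : ∀ n : E → ℤ, (∀ v, dvA p q n v = 0) ↔ ∃ h, c0 h = n) {e e' : E} (hne : e ≠ e') :
    |(∑' h : H, Gw J (c0 h) * ((c0 h e : ℝ) * (c0 h e' : ℝ))) / ∑' h : H, Gw J (c0 h)| ≤
      J e * J e' * max (XY.corr (matJ p q J) (p e) (q e') * XY.corr (matJ p q J) (q e) (p e'))
        (XY.corr (matJ p q J) (p e) (p e') * XY.corr (matJ p q J) (q e) (q e')) := by
  have h1 := (hasSum_cur p q hJ c0 h0 e0 hne).tsum_eq
  have h2 := (hasSum_shift p q hJ c0 h0 e0 0).tsum_eq
  have h3 : XY.un (matJ p q J) (fun θ => XY.ct (∑ e, (0 : E → ℤ) e • (θ (p e) - θ (q e)))) =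
      XY.part (matJ p q J) := by
    rw [XY.part_eq_un]
    congr 1
    funext θ
    simp only [Pi.zero_apply, zero_smul, Finset.sum_const_zero, XY.ct_zero]
  rw [h3] at h2
  simp only [add_zero] at h2
  rw [h1, h2]
  have hP := XY.part_pos (matJ p q J)
  have h4 := sin_sin_le (matJ p q J) (matJ_nonneg hJ) (p e) (q e) (p e') (q e')
  unfold XY.ev at h4
  rw [← sub_div] at h4
  rw [mul_div_assoc, abs_mul, abs_of_nonneg (by have := hJ e; have := hJ e'; positivity)]
  have h5 : 0 ≤ J e * J e' / 2 := by have := hJ e; have := hJ e'; positivity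
  calc J e * J e' / 2 * _ ≤ J e * J e' / 2 * _ := mul_le_mul_of_nonneg_left h4 h5
    _ = _ := by ring

end cur

end Vale.Agent.P159.T1.S.Loc
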