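import Vale.Agent.P159.T1.S.H568.LocA
import Vale.Agent.P159.T1.H568.RDual
import Vale.Agent.P159.T1.H731.U
import Vale.Agent.P159.Bdl.B8

/-!
P159: planar duality for a rectangle of faces with heights `0` outside: the currents without
divergence on the bonds of the closed rectangle are the gradients of the heights; the correlation of
the gradients of the heights across two different bonds.
-/

open MeasureTheory Filter Topology

namespace Vale.Agent.P159.T1.S.Loc

open Vale.Agent.P159 Vale.Agent.P159.H353 Vale.Agent.P159.R2.H254 Vale.Agent.P159.T1.H857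
open Vale.Agent.P159.T1.D Vale.Agent.P159.T1.H910
open Vale.Agent.P159.T1.H532 (Gw)
open Vale.Agent.P159.T1.H568 (rc mem_rc RA RE tV tV_mem rp rq ex ex_mem ex_not dvg_eq gR gR_zero
  gR_succ hR hR_off)

variable {w T' : ℕ}

/-- sites of the closed rectangle -/
noncomputable def fV (w T' : ℕ) : Finset Z2 := Finset.Icc (0 : ℤ) w ×ˢ Finset.Icc (0 : ℤ) T'

lemma mem_fV {v : Z2} : v ∈ fV w T' ↔ 0 ≤ v.1 ∧ v.1 ≤ w ∧ 0 ≤ v.2 ∧ v.2 ≤ T' := by
  unfold fV
  rw [Finset.mem_product, Finset.mem_Icc, Finset.mem_Icc]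
  tauto

lemma mem_bdR {e : Bnd} : e ∈ bd (rc w T') ↔
    (e.2 = true ∧ 1 ≤ w ∧ 0 ≤ e.1.1 ∧ e.1.1 ≤ w ∧ 0 ≤ e.1.2 ∧ e.1.2 < T') ∨
      (e.2 = false ∧ 1 ≤ T' ∧ 0 ≤ e.1.1 ∧ e.1.1 < w ∧ 0 ≤ e.1.2 ∧ e.1.2 ≤ T') := by
  rw [mem_bd, mem_rc, mem_rc]
  obtain ⟨⟨x, y⟩, τ⟩ := e
  cases τ
  · simp only [D.rt, D.lf, Bool.false_eq_true, if_false, true_and, false_and, false_or]
    omega
  · simp only [D.rt, D.lf, if_true, reduceCtorEq, true_and, false_and, or_false]
    omega

lemma bs_mem {e : Bnd} (he : e ∈ bd (rc w T')) : bs e ∈ fV w T' := by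
  rw [mem_bdR] at he
  rw [mem_fV]
  unfold bs
  omega

lemma bt_mem {e : Bnd} (he : e ∈ bd (rc w T')) : bt e ∈ fV w T' := by
  rw [mem_bdR] at he
  rw [mem_fV]
  obtain ⟨⟨x, y⟩, τ⟩ := e
  unfold bt
  cases τ
  · simp only [Bool.false_eq_true, if_false, true_and, false_and, false_or] at he ⊢
    omega
  · simp only [if_true, reduceCtorEq, true_and, false_and, or_false] at he ⊢
    omega

/-- first end point -/
noncomputable def fp (e : RE (bd (rc w T'))) : RA (fV w T') := ⟨bs e.1, bs_mem e.2⟩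

/-- second end point -/
noncomputable def fq (e : RE (bd (rc w T'))) : RA (fV w T') := ⟨bt e.1, bt_mem e.2⟩

/-- the divergence -/
lemma dvA_eq (n : RE (bd (rc w T')) → ℤ) (v : RA (fV w T')) :
    dvA fp fq n v = ex (bd (rc w T')) n (v.1, true) + ex (bd (rc w T')) n (v.1, false) -
      ex (bd (rc w T')) n ((v.1.1, v.1.2 - 1), true) -
      ex (bd (rc w T')) n ((v.1.1 - 1, v.1.2), false) := by
  have h1 : (fun e : RE (bd (rc w T')) => some (fp e)) = rp (fV w T') (bd (rc w T')) := by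
    funext e
    exact (tV_mem (bs_mem e.2)).symm
  have h2 : (fun e : RE (bd (rc w T')) => some (fq e)) = rq (fV w T') (bd (rc w T')) := by
    funext e
    exact (tV_mem (bt_mem e.2)).symm
  rw [← dvg_some, h1, h2, dvg_eq]

/-- the current of the heights -/
def cF (w T' : ℕ) (h : Ht (rc w T')) (e : RE (bd (rc w T'))) : ℤ := dh h.1 e.1

lemma ex_cF (h : Ht (rc w T')) (e : Bnd) : ex (bd (rc w T')) (cF w T' h) e = dh h.1 e := by
  by_cases h1 : e ∈ bd (rc w T')
  · rw [ex_mem _ h1]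
    rfl
  · rw [ex_not _ h1]
    symm
    exact H731.dh_off h h1

lemma cF_inj : Function.Injective (cF w T') := fun _ _ hk =>
  H731.dh_inj fun e => congrFun hk e

lemma dvA_cF (h : Ht (rc w T')) (v : RA (fV w T')) : dvA fp fq (cF w T' h) v = 0 := by
  rw [dvA_eq, ex_cF, ex_cF, ex_cF, ex_cF]
  unfold dh D.lf D.rt
  simp only [if_true, Bool.false_eq_true, if_false]
  ring

lemma gF_off {n : Bnd → ℤ} (hn : ∀ e, e ∉ bd (rc w T') → n e = 0) {x : ℤ}
    (hx : x < 0 ∨ (w : ℤ) ≤ x) (m : ℕ) : gR n x m = 0 := by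
  unfold gR
  refine Finset.sum_eq_zero fun k _ => hn _ ?_
  rw [mem_bdR]
  simp only [Bool.false_eq_true, false_and, true_and, false_or]
  omega

lemma hF_nat {n : Bnd → ℤ} (hn : ∀ e, e ∉ bd (rc w T') → n e = 0) (x : ℤ) {m : ℕ} (hm : m < T') :
    hR w T' n (x, (m : ℤ)) = gR n x (m + 1) := by
  unfold hR
  simp only [Int.toNat_natCast]
  split_ifs with h
  · rfl
  · rw [gF_off hn]
    rw [mem_rc] at h
    simp only at h
    omega

lemma hF_pred {n : Bnd → ℤ} (hn : ∀ e, e ∉ bd (rc w T') → n e = 0) (x : ℤ) {m : ℕ}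
    (hm : m ≤ T') : hR w T' n (x, (m : ℤ) - 1) = gR n x m := by
  rcases m with _ | m
  · rw [gR_zero, hR_off]
    rw [mem_rc]
    simp only
    omega
  · have := hF_nat hn x (m := m) (by omega)
    rw [← this]
    congr 2
    push_cast
    ring

/-- the vertical currents -/
lemma vertF {n : Bnd → ℤ} (hn : ∀ e, e ∉ bd (rc w T') → n e = 0)
    (hd : ∀ v ∈ fV w T', n (v, true) + n (v, false) - n ((v.1, v.2 - 1), true) -
      n ((v.1 - 1, v.2), false) = 0) {x : ℤ} (hx : 0 ≤ x) (hx' : x ≤ w) (m : ℕ) (hm : m ≤ T') :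
    n ((x, (m : ℤ)), true) = gR n (x - 1) (m + 1) - gR n x (m + 1) := by
  induction m with
  | zero =>
    have h1 := hd (x, ((0 : ℕ) : ℤ)) (by rw [mem_fV]; simp only; omega)
    have h2 : n ((x, ((0 : ℕ) : ℤ) - 1), true) = 0 := hn _ (by
      rw [mem_bdR]
      simp only [true_and, reduceCtorEq, false_and, or_false]
      omega)
    simp only at h1
    rw [h2] at h1
    rw [gR_succ, gR_succ, gR_zero, gR_zero]
    linarith
  | succ m ih =>
    have h1 := hd (x, ((m + 1 : ℕ) : ℤ)) (by rw [mem_fV]; simp only; omega)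
    have h3 := ih (by omega)
    simp only at h1
    rw [show ((m + 1 : ℕ) : ℤ) - 1 = (m : ℤ) by push_cast; ring] at h1
    rw [gR_succ _ _ (m + 1), gR_succ _ _ (m + 1)]
    linarith

/-- no total flux through a column -/
lemma gF_top {n : Bnd → ℤ} (hn : ∀ e, e ∉ bd (rc w T') → n e = 0)
    (hd : ∀ v ∈ fV w T', n (v, true) + n (v, false) - n ((v.1, v.2 - 1), true) -
      n ((v.1 - 1, v.2), false) = 0) (k : ℕ) (hk : k ≤ w) :
    gR n ((k : ℤ) - 1) (T' + 1) = 0 ∧ gR n (k : ℤ) (T' + 1) = 0 := by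
  have hz : ∀ x : ℤ, n ((x, (T' : ℤ)), true) = 0 := fun x => hn _ (by
    rw [mem_bdR]
    simp only [true_and, reduceCtorEq, false_and, or_false]
    omega)
  induction k with
  | zero =>
    have h0 : gR n (((0 : ℕ) : ℤ) - 1) (T' + 1) = 0 := gF_off hn (by omega) _
    have h1 := vertF hn hd (x := ((0 : ℕ) : ℤ)) (by omega) (by omega) T' le_rfl
    rw [hz, h0] at h1
    exact ⟨h0, by linarith⟩
  | succ k ih =>
    have h0 : gR n (((k + 1 : ℕ) : ℤ) - 1) (T' + 1) = 0 := by
      rw [show ((k + 1 : ℕ) : ℤ) - 1 = (k : ℤ) by push_cast; ring]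
      exact (ih (by omega)).2
    have h1 := vertF hn hd (x := ((k + 1 : ℕ) : ℤ)) (by omega) (by omega) T' le_rfl
    rw [hz, h0] at h1
    exact ⟨h0, by linarith⟩

/-- currents without divergence are gradients -/
theorem cF_surj (n : RE (bd (rc w T')) → ℤ) (hd : ∀ v, dvA fp fq n v = 0) :
    ∃ h, cF w T' h = n := by
  set N := ex (bd (rc w T')) n with hN
  have hn : ∀ e, e ∉ bd (rc w T') → N e = 0 := fun e he => ex_not n he
  have hd' : ∀ v ∈ fV w T', N (v, true) + N (v, false) - N ((v.1, v.2 - 1), true) -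
      N ((v.1 - 1, v.2), false) = 0 := by
    intro v hv
    have := hd ⟨v, hv⟩
    rwa [dvA_eq] at this
  refine ⟨⟨hR w T' N, fun f hf => hR_off N hf⟩, ?_⟩
  funext ⟨e, he⟩
  show dh (hR w T' N) e = n ⟨e, he⟩
  rw [← ex_mem n he, ← hN]
  obtain ⟨⟨x, y⟩, τ⟩ := e
  have he' := mem_bdR.1 he
  cases τ
  · simp only [Bool.false_eq_true, false_and, true_and, false_or] at he'
    obtain ⟨m, rfl⟩ : ∃ m : ℕ, y = m := ⟨y.toNat, by omega⟩
    show hR w T' N (x, (m : ℤ)) - hR w T' N (x, (m : ℤ) - 1) = _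
    rw [hF_pred hn x (by omega)]
    by_cases hm : m < T'
    · rw [hF_nat hn x hm, gR_succ]
      ring
    · have hm' : m = T' := by omega
      subst hm'
      have h1 : hR w m N (x, (m : ℤ)) = 0 := by
        apply hR_off
        rw [mem_rc]
        simp only
        omega
      obtain ⟨k, rfl⟩ : ∃ k : ℕ, x = k := ⟨x.toNat, by omega⟩
      have h2 := (gF_top hn hd' k (by omega)).2
      rw [gR_succ] at h2
      rw [h1]
      linarith
  · simp only [true_and, reduceCtorEq, false_and, or_false] at he'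
    obtain ⟨m, rfl⟩ : ∃ m : ℕ, y = m := ⟨y.toNat, by omega⟩
    show hR w T' N (x - 1, (m : ℤ)) - hR w T' N (x, (m : ℤ)) = _
    rw [hF_nat hn _ (by omega), hF_nat hn _ (by omega),
      vertF hn hd' (by omega) (by omega) m (by omega)]

theorem cF_iff (n : RE (bd (rc w T')) → ℤ) :
    (∀ v, dvA fp fq n v = 0) ↔ ∃ h, cF w T' h = n :=
  ⟨cF_surj n, by rintro ⟨h, rfl⟩; exact dvA_cF h⟩

/-! ### comparison with the infinite volume -/

lemma matJ_le {b : ℝ} (hb : 0 ≤ b) (u v : RA (fV w T')) :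
    matJ fp fq (fun _ : RE (bd (rc w T')) => b) u v ≤ nn b u.1 v.1 := by
  unfold matJ
  by_cases h : ∃ e : RE (bd (rc w T')), fp e = u ∧ fq e = v
  · obtain ⟨e, he1, he2⟩ := h
    rw [Finset.sum_eq_single e]
    · rw [if_pos ⟨he1, he2⟩]
      unfold nn
      rw [if_pos]
      rw [← he1, ← he2]
      obtain ⟨⟨⟨x, y⟩, τ⟩, hτ⟩ := e
      show bt ((x, y), τ) = bs ((x, y), τ) + (1, 0) ∨ bt ((x, y), τ) = bs ((x, y), τ) + (0, 1)
      unfold bt bs
      cases τ
      · left
        simp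
      · right
        simp
    · intro e' _ hne
      rw [if_neg]
      rintro ⟨h1, h2⟩
      apply hne
      have a1 : bs e'.1 = bs e.1 := congrArg Subtype.val (h1.trans he1.symm)
      have a2 : bt e'.1 = bt e.1 := congrArg Subtype.val (h2.trans he2.symm)
      apply Subtype.ext
      obtain ⟨⟨⟨x, y⟩, τ⟩, _⟩ := e
      obtain ⟨⟨⟨x', y'⟩, τ'⟩, _⟩ := e'
      unfold bs at a1
      unfold bt at a2
      simp only [Prod.mk.injEq] at a1 a2 ⊢
      cases τ <;> cases τ' <;>
        simp only [Bool.false_eq_true, if_false, if_true, Prod.mk.injEq, and_true, and_false,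
          reduceCtorEq] at a2 ⊢ <;> omega
    · intro h
      exact absurd (Finset.mem_univ _) h
  · rw [Finset.sum_eq_zero]
    · exact XY.nn_nonneg hb _ _
    · intro e _
      rw [if_neg]
      exact fun h' => h ⟨e, h'⟩

lemma corr_le_CI {b : ℝ} (hb : 0 ≤ b) (x y : RA (fV w T')) :
    XY.corr (matJ fp fq (fun _ : RE (bd (rc w T')) => b)) x y ≤ XY.CI b x.1 y.1 := by
  set J := matJ fp fq (fun _ : RE (bd (rc w T')) => b) with hJdef
  have hJ : ∀ u v, 0 ≤ J u v := fun u v => matJ_nonneg (fun _ => hb) u v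
  have h1 : XY.corr J x y = XY.corr (fun u v => (J u v + J v u) / 2) x y := by
    unfold XY.corr XY.ev XY.un XY.part
    simp_rw [XY.energy_symm]
  have h2 : XY.corr (fun u v => (J u v + J v u) / 2) x y ≤ XY.KS (fV w T') b x.1 y.1 := by
    rw [XY.KS_of_mem b x.2 y.2]
    refine XY.corr_mono (fun u v => ?_) (fun u v => ?_) _ _
    · have := hJ u v
      have := hJ v u
      positivity
    · have h3 := matJ_le hb u v
      have h4 := matJ_le hb v u
      unfold XY.A
      rw [XY.nn_eq] at h3 h4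
      rw [← hJdef] at h3 h4
      linarith
  rw [h1]
  exact h2.trans (XY.KS_le_CI _ hb _ _)

lemma wt_Gw (b : ℝ) (h : Ht (rc w T')) :
    D.wt b (rc w T') 0 h.1 = Gw (fun _ : RE (bd (rc w T')) => b) (cF w T' h) := by
  unfold D.wt Gw cF
  rw [← Finset.prod_coe_sort (bd (rc w T'))]
  refine Finset.prod_congr rfl fun e _ => ?_
  simp

/-- **the correlation of two different gradients** -/
theorem grad_grad_le {b : ℝ} (hb : 0 ≤ b) {e e' : Bnd} (he : e ∈ bd (rc w T'))
    (he' : e' ∈ bd (rc w T')) (hne : e ≠ e') :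
    |E b (rc w T') fun h => (dh h e : ℝ) * (dh h e' : ℝ)| ≤
      b * b * max (XY.CI b (bs e) (bt e') * XY.CI b (bt e) (bs e'))
        (XY.CI b (bs e) (bs e') * XY.CI b (bt e) (bt e')) := by
  classical
  have h1 := cur_le (H := Ht (rc w T')) fp fq (J := fun _ : RE (bd (rc w T')) => b) (fun _ => hb)
    (cF w T') cF_inj cF_iff (e := ⟨e, he⟩) (e' := ⟨e', he'⟩) (fun h => hne (congrArg Subtype.val h))
  have h2 : (E b (rc w T') fun h => (dh h e : ℝ) * (dh h e' : ℝ)) =
      (∑' h : Ht (rc w T'), Gw (fun _ : RE (bd (rc w T')) => b) (cF w T' h) *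
        ((cF w T' h ⟨e, he⟩ : ℝ) * (cF w T' h ⟨e', he'⟩ : ℝ))) /
      ∑' h : Ht (rc w T'), Gw (fun _ : RE (bd (rc w T')) => b) (cF w T' h) := by
    unfold D.E D.Z
    congr 1
    · exact tsum_congr fun h => by rw [wt_Gw]; rfl
    · exact tsum_congr fun h => by rw [wt_Gw]
  rw [h2]
  refine h1.trans (mul_le_mul_of_nonneg_left ?_ (by positivity))
  have c1 := fun x y : RA (fV w T') => corr_le_CI (w := w) (T' := T') hb x y
  have c0 := fun x y : RA (fV w T') => XY.corr_nonneg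
    (matJ fp fq (fun _ : RE (bd (rc w T')) => b)) (fun u v => matJ_nonneg (fun _ => hb) u v) x y
  exact max_le_max (mul_le_mul (c1 _ _) (c1 _ _) (c0 _ _) (XY.CI_nonneg hb _ _))
    (mul_le_mul (c1 _ _) (c1 _ _) (c0 _ _) (XY.CI_nonneg hb _ _))

end Vale.Agent.P159.T1.S.Loc
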