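import Vale.Agent.P159.T1.S.H568.LocC
import Vale.Agent.P159.T1.S.H711.HvP

/-!
P159: localization of the heights below the critical point, in elementary terms.
-/

open MeasureTheory Filter Topology

namespace Vale.Agent.P159.T1.S.Loc

open Vale.Agent.P159 Vale.Agent.P159.T1.D

/-- the mean square height is bounded below the critical point, uniformly in the domain and in the
face, with an explicit constant -/
theorem loc_explicit (b : ℝ) (hb : 0 < b) (hc : b < bCrit) (U : Finset (ℤ × ℤ)) (x : ℤ × ℤ) :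
    Hv.hMean b U (fun h => (h x : ℝ) ^ 2) ≤
      b ^ 2 * Real.exp (-(2 * mass b)) / (1 - Real.exp (-(2 * mass b))) ^ 2 := by
  rw [Hv.hMean_eq hb.le]
  exact loc_hv b hb hc U x

/-- **localization below the critical point** -/
theorem loc (b : ℝ) (hb : 0 < b) (hc : b < bCrit) : ∃ C : ℝ, ∀ (U : Finset (ℤ × ℤ)) (x : ℤ × ℤ),
    Hv.hMean b U (fun h => (h x : ℝ) ^ 2) ≤ C :=
  ⟨_, loc_explicit b hb hc⟩

end Vale.Agent.P159.T1.S.Loc
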