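import Vale.Agent.P159.T1.S.H568.LocD

/-!
P159: localization of the heights below the critical point, bound in terms of the correlation length.
-/

open MeasureTheory Filter Topology

namespace Vale.Agent.P159.T1.S.Loc

open Vale.Agent.P159 Vale.Agent.P159.T1.D

/-- comparison of the constants -/
lemma const_le {b m : ℝ} (hm : 0 < m) :
    b ^ 2 * Real.exp (-(2 * m)) / (1 - Real.exp (-(2 * m))) ^ 2 ≤ (b * (1 / m) / 2) ^ 2 := by
  have h1 : m ≤ Real.sinh m := Real.self_le_sinh_iff.2 hm.le
  have h2 : 0 < Real.sinh m := lt_of_lt_of_le hm h1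
  have e1 : Real.exp (-(2 * m)) = Real.exp (-m) ^ 2 := by
    rw [← Real.exp_nat_mul]
    congr 1
    push_cast
    ring
  have e2 : 1 - Real.exp (-(2 * m)) = 2 * Real.exp (-m) * Real.sinh m := by
    rw [Real.sinh_eq]
    have h3 : Real.exp (-m) * Real.exp m = 1 := by rw [← Real.exp_add, neg_add_cancel, Real.exp_zero]
    have h4 : Real.exp (-m) * Real.exp (-m) = Real.exp (-(2 * m)) := by
      rw [← Real.exp_add]
      congr 1
      ring
    linear_combination (-1) * h3 + h4
  have e3 : b ^ 2 * Real.exp (-(2 * m)) / (1 - Real.exp (-(2 * m))) ^ 2 =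
      (b / (2 * Real.sinh m)) ^ 2 := by
    rw [e2, e1]
    have h5 := Real.exp_pos (-m)
    field_simp
    try ring
  have e4 : (b * (1 / m) / 2) ^ 2 = (b / (2 * m)) ^ 2 := by
    congr 1
    field_simp
  rw [e3, e4, div_pow, div_pow]
  apply div_le_div_of_nonneg_left (sq_nonneg b) (by positivity)
  gcongr

/-- **localization below the critical point**: the mean square height is at most `(b ξ(b) / 2) ^ 2`,
for every finite domain and every face -/
theorem loc_xi (b : ℝ) (hb : 0 < b) (hc : b < bCrit) (U : Finset (ℤ × ℤ)) (x : ℤ × ℤ) :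
    Hv.hMean b U (fun h => (h x : ℝ) ^ 2) ≤ (b * corrLength b / 2) ^ 2 := by
  refine (loc_explicit b hb hc U x).trans ?_
  unfold corrLength
  exact const_le (XY.mass_pos_of_lt_bCrit hb hc)

end Vale.Agent.P159.T1.S.Loc
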