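import Vale.Agent.P159.T1.S.H568.LocE
import Vale.Agent.P159.T1.H910.Sym

/-!
P159: below the critical point the covariances of the heights in a box decay exponentially, uniformly
in the box.
-/

open MeasureTheory Filter Topology

namespace Vale.Agent.P159.T1.S.Loc

open Vale.Agent.P159 Vale.Agent.P159.H353 Vale.Agent.P159.R2.H254 Vale.Agent.P159.T1.H857
open Vale.Agent.P159.T1.D Vale.Agent.P159.T1.H910
open Vale.Agent.P159.T1.H568 (rc mem_rc RA RE)

variable {w T' : ℕ} {b : ℝ}

/-- two vertical bonds -/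
theorem horiz_exp2 (hb : 0 < b) {x y t t' : ℤ} (hxy : x < y)
    (he : (((x, t) : Z2), true) ∈ bd (rc w T')) (he' : (((y, t') : Z2), true) ∈ bd (rc w T')) :
    |E b (rc w T') fun h => (dh h ((x, t), true) : ℝ) * (dh h ((y, t'), true) : ℝ)| ≤
      b * b * Real.exp (-(2 * mass b * (y - x))) := by
  have h1 := grad_grad_le hb.le he he' (by
    intro h
    simp only [Prod.mk.injEq, and_true] at h
    omega)
  refine h1.trans (mul_le_mul_of_nonneg_left ?_ (by positivity))
  have e : Real.exp (-(2 * mass b * (y - x))) =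
      Real.exp (-(mass b * ((y - x : ℤ) : ℝ))) * Real.exp (-(mass b * ((y - x : ℤ) : ℝ))) := by
    rw [← Real.exp_add]
    congr 1
    push_cast
    ring
  rw [e]
  have c1 : ∀ s s' : ℤ, XY.CI b ((x, s) : Z2) ((y, s') : Z2) ≤
      Real.exp (-(mass b * ((y - x : ℤ) : ℝ))) := by
    intro s s'
    refine CI_exp hb _ _ ?_
    unfold XY.nm
    simp only [Prod.mk_sub_mk]
    omega
  refine max_le ?_ ?_
  · exact mul_le_mul (c1 _ _) (c1 _ _) (XY.CI_nonneg hb.le _ _) (Real.exp_pos _).le
  · exact mul_le_mul (c1 _ _) (c1 _ _) (XY.CI_nonneg hb.le _ _) (Real.exp_pos _).le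

/-- decay of the covariance in the first coordinate -/
theorem cov_exp2 (hb : 0 < b) (hm : 0 < mass b) {x y t t' : ℤ} (hxy : x ≤ y)
    (hx : ((x, t) : Z2) ∈ rc w T') (hy : ((y, t') : Z2) ∈ rc w T') :
    |E b (rc w T') fun h => (h (x, t) : ℝ) * (h (y, t') : ℝ)| ≤
      b * b * Real.exp (-(2 * mass b * (y - x + 1))) / (1 - Real.exp (-(2 * mass b))) ^ 2 := by
  classical
  have hx' := mem_rc.1 hx
  have hy' := mem_rc.1 hy
  simp only at hx' hy'
  set r : ℝ := Real.exp (-(2 * mass b)) with hr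
  have hr0 : 0 ≤ r := (Real.exp_pos _).le
  have hr1 : r < 1 := by rw [hr, Real.exp_lt_one_iff]; linarith
  set n := (w - y).toNat with hn
  set m := (x + 1).toNat with hmm
  set F : ℕ → ℕ → (Z2 → ℤ) → ℝ := fun i j h =>
    (dh h ((x - j, t), true) : ℝ) * (dh h ((y + 1 + i, t'), true) : ℝ) with hF
  have mem1 : ∀ i ∈ Finset.range n, (((y + 1 + i, t') : Z2), true) ∈ bd (rc w T') := by
    intro i hi
    rw [Finset.mem_range] at hi
    rw [mem_bdR]
    simp only [true_and, reduceCtorEq, false_and, or_false]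
    omega
  have mem2 : ∀ j ∈ Finset.range m, (((x - j, t) : Z2), true) ∈ bd (rc w T') := by
    intro j hj
    rw [Finset.mem_range] at hj
    rw [mem_bdR]
    simp only [true_and, reduceCtorEq, false_and, or_false]
    omega
  have hne : ∀ i j : ℕ, (((x - j, t) : Z2), true) ≠ (((y + 1 + i, t') : Z2), true) := by
    intro i j h
    simp only [Prod.mk.injEq, and_true] at h
    omega
  have hsum : ∀ i ∈ Finset.range n, ∀ j ∈ Finset.range m,
      Summable fun h : Ht (rc w T') => D.wt b (rc w T') 0 h.1 * F i j h.1 := fun i hi j hj =>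
    summable_gg hb.le (mem2 j hj) (mem1 i hi) (hne i j)
  have h1 : (E b (rc w T') fun h => (h (x, t) : ℝ) * (h (y, t') : ℝ)) =
      -∑ i ∈ Finset.range n, ∑ j ∈ Finset.range m, E b (rc w T') (F i j) := by
    unfold D.E
    simp only [← Finset.sum_div]
    rw [← neg_div]
    congr 1
    have e1 : ∀ i ∈ Finset.range n, ∑ j ∈ Finset.range m,
        ∑' h : Ht (rc w T'), D.wt b (rc w T') 0 h.1 * F i j h.1 =
        ∑' h : Ht (rc w T'), ∑ j ∈ Finset.range m, D.wt b (rc w T') 0 h.1 * F i j h.1 :=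
      fun i hi => (Summable.tsum_finsetSum fun j hj => hsum i hi j hj).symm
    rw [Finset.sum_congr rfl e1, ← Summable.tsum_finsetSum fun i hi => summable_sum (hsum i hi),
      ← tsum_neg]
    refine tsum_congr fun h => ?_
    have e2 : ((h.1 (x, t) : ℤ) : ℝ) = -∑ j ∈ Finset.range m, (dh h.1 ((x - j, t), true) : ℝ) := by
      rw [left_sum h hx]
      push_cast
      rfl
    have e3 : ((h.1 (y, t') : ℤ) : ℝ) =
        ∑ i ∈ Finset.range n, (dh h.1 ((y + 1 + i, t'), true) : ℝ) := by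
      rw [right_sum h hy]
      push_cast
      rfl
    rw [e2, e3, neg_mul, mul_neg, Finset.sum_mul_sum, Finset.sum_comm]
    simp only [hF, Finset.mul_sum]
  rw [h1, abs_neg]
  have h2 : ∀ i ∈ Finset.range n, ∀ j ∈ Finset.range m, |E b (rc w T') (F i j)| ≤
      b * b * Real.exp (-(2 * mass b * (y - x + 1))) * (r ^ i * r ^ j) := by
    intro i hi j hj
    refine (horiz_exp2 (w := w) (T' := T') hb (x := x - j) (y := y + 1 + i) (t := t) (t' := t')
      (by omega) (mem2 j hj) (mem1 i hi)).trans (le_of_eq ?_)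
    rw [mul_assoc (b * b)]
    congr 1
    rw [hr, ← Real.exp_nat_mul, ← Real.exp_nat_mul, ← Real.exp_add, ← Real.exp_add]
    congr 1
    push_cast
    ring
  calc |∑ i ∈ Finset.range n, ∑ j ∈ Finset.range m, E b (rc w T') (F i j)|
      ≤ ∑ i ∈ Finset.range n, ∑ j ∈ Finset.range m, |E b (rc w T') (F i j)| :=
        (Finset.abs_sum_le_sum_abs _ _).trans (Finset.sum_le_sum fun i _ =>
          Finset.abs_sum_le_sum_abs _ _)
    _ ≤ ∑ i ∈ Finset.range n, ∑ j ∈ Finset.range m,
        b * b * Real.exp (-(2 * mass b * (y - x + 1))) * (r ^ i * r ^ j) :=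
        Finset.sum_le_sum fun i hi => Finset.sum_le_sum fun j hj => h2 i hi j hj
    _ = b * b * Real.exp (-(2 * mass b * (y - x + 1))) *
        ((∑ i ∈ Finset.range n, r ^ i) * ∑ j ∈ Finset.range m, r ^ j) := by
        rw [Finset.sum_mul_sum, Finset.mul_sum]
        exact Finset.sum_congr rfl fun i _ => by rw [Finset.mul_sum]
    _ ≤ b * b * Real.exp (-(2 * mass b * (y - x + 1))) * ((1 - r)⁻¹ * (1 - r)⁻¹) := by
        refine mul_le_mul_of_nonneg_left ?_ (by positivity)
        exact mul_le_mul (geo r hr0 hr1 n) (geo r hr0 hr1 m)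
          (Finset.sum_nonneg fun i _ => pow_nonneg hr0 i) (by
            rw [inv_nonneg]; linarith)
    _ = _ := by
        rw [div_eq_mul_inv, pow_two (1 - r), mul_inv]

/-- covariances and symmetries -/
lemma cov_symm {σ : Z2 ≃ Z2} {τ : Bnd ≃ Bnd} (hs : IsSym σ τ) (b : ℝ) (U : Finset Z2) (x y : Z2) :
    (E b (U.map σ.toEmbedding) fun h => (h (σ x) : ℝ) * (h (σ y) : ℝ)) =
      E b U fun h => (h x : ℝ) * (h y : ℝ) := by
  rw [E_eq, E_eq, hs.bd, FF_symm hs, FF_symm hs]
  congr 1
  refine FF_congr fun h => ?_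
  simp

/-- decay of the covariance of the heights in a square -/
theorem cov_sq (hb : 0 < b) (hm : 0 < mass b) {x y : Z2}
    (hx : x ∈ rc w w) (hy : y ∈ rc w w) :
    |E b (rc w w) fun h => (h x : ℝ) * (h y : ℝ)| ≤
      b ^ 2 * Real.exp (-(2 * mass b)) / (1 - Real.exp (-(2 * mass b))) ^ 2 *
        Real.exp (-(2 * mass b * XY.nm (x - y))) := by
  have key : ∀ x y : Z2, x ∈ rc w w → y ∈ rc w w → x.1 ≤ y.1 →
      |E b (rc w w) fun h => (h x : ℝ) * (h y : ℝ)| ≤
      b ^ 2 * Real.exp (-(2 * mass b)) / (1 - Real.exp (-(2 * mass b))) ^ 2 *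
        Real.exp (-(2 * mass b * (y.1 - x.1 : ℤ))) := by
    intro x y hx hy hxy
    refine (cov_exp2 hb hm hxy hx hy).trans (le_of_eq ?_)
    have e : Real.exp (-(2 * mass b * (y.1 - x.1 + 1))) = Real.exp (-(2 * mass b)) *
        Real.exp (-(2 * mass b * (y.1 - x.1 : ℤ))) := by
      rw [← Real.exp_add]
      congr 1
      push_cast
      ring
    rw [e]
    ring
  have key2 : ∀ x y : Z2, x ∈ rc w w → y ∈ rc w w →
      |E b (rc w w) fun h => (h x : ℝ) * (h y : ℝ)| ≤
      b ^ 2 * Real.exp (-(2 * mass b)) / (1 - Real.exp (-(2 * mass b))) ^ 2 *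
        Real.exp (-(2 * mass b * ((x.1 - y.1).natAbs : ℕ))) := by
    intro x y hx hy
    rcases le_total x.1 y.1 with h | h
    · refine (key x y hx hy h).trans (le_of_eq ?_)
      congr 3
      have e1 : ((y.1 - x.1 : ℤ) : ℝ) = (((x.1 - y.1).natAbs : ℕ) : ℤ) := by
        congr 1
        omega
      rw [e1]
      simp
    · have e0 : (E b (rc w w) fun h => (h x : ℝ) * (h y : ℝ)) =
          E b (rc w w) fun h => (h y : ℝ) * (h x : ℝ) := by
        congr 1
        funext h
        ring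
      rw [e0]
      refine (key y x hy hx h).trans (le_of_eq ?_)
      congr 3
      have e1 : ((x.1 - y.1 : ℤ) : ℝ) = (((x.1 - y.1).natAbs : ℕ) : ℤ) := by
        congr 1
        omega
      rw [e1]
      simp
  rcases le_total (x.2 - y.2).natAbs (x.1 - y.1).natAbs with h | h
  · have e1 : XY.nm (x - y) = (x.1 - y.1).natAbs := by
      unfold XY.nm
      rw [Prod.fst_sub, Prod.snd_sub]
      omega
    rw [e1]
    exact key2 x y hx hy
  · have e1 : XY.nm (x - y) = (x.2 - y.2).natAbs := by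
      unfold XY.nm
      rw [Prod.fst_sub, Prod.snd_sub]
      omega
    rw [e1]
    have e2 : (rc w w).map swF.toEmbedding = rc w w := by
      ext f
      rw [Finset.mem_map]
      constructor
      · rintro ⟨g, hg, rfl⟩
        rw [mem_rc] at hg ⊢
        simp [swF]
        omega
      · intro hf
        refine ⟨(f.2, f.1), ?_, rfl⟩
        rw [mem_rc] at hf ⊢
        simp only
        omega
    have h3 := cov_symm isSym_sw b (rc w w) x y
    rw [e2] at h3
    rw [← h3]
    have h4 := key2 (swF x) (swF y) (by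
      rw [mem_rc] at hx ⊢
      simp [swF]
      omega) (by
      rw [mem_rc] at hy ⊢
      simp [swF]
      omega)
    exact h4

/-- **exponential decay of the covariances below the critical point** -/
theorem cov_loc (b : ℝ) (hb : 0 < b) (hc : b < bCrit) (n : ℕ) (x y : ℤ × ℤ) :
    |Hv.hMean b (Finset.Icc (-(n : ℤ), -(n : ℤ)) ((n : ℤ), (n : ℤ)))
      (fun h => (h x : ℝ) * (h y : ℝ))| ≤
    (b * corrLength b / 2) ^ 2 *
      Real.exp (-(2 * ((max |x.1 - y.1| |x.2 - y.2| : ℤ) : ℝ) / corrLength b)) := by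
  have hm := XY.mass_pos_of_lt_bCrit hb hc
  rw [Hv.hMean_eq hb.le]
  set U : Finset (ℤ × ℤ) := Finset.Icc (-(n : ℤ), -(n : ℤ)) ((n : ℤ), (n : ℤ)) with hU
  have hmem : ∀ z : ℤ × ℤ, z ∈ U ↔ (-(n : ℤ) ≤ z.1 ∧ -(n : ℤ) ≤ z.2) ∧ (z.1 ≤ n ∧ z.2 ≤ n) := by
    intro z
    rw [hU, Finset.mem_Icc, Prod.le_def, Prod.le_def]
  by_cases hxy : x ∈ U ∧ y ∈ U
  · obtain ⟨hx, hy⟩ := hxy
    have e2 : U.map (trF ((n : ℤ), (n : ℤ))).toEmbedding = rc (2 * n + 1) (2 * n + 1) := by
      ext f
      rw [Finset.mem_map]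
      constructor
      · rintro ⟨g, hg, rfl⟩
        rw [hmem] at hg
        rw [mem_rc]
        simp [trF]
        omega
      · intro hf
        refine ⟨f - ((n : ℤ), (n : ℤ)), ?_, by simp [trF]⟩
        rw [mem_rc] at hf
        rw [hmem]
        simp only [Prod.fst_sub, Prod.snd_sub]
        push_cast at hf
        omega
    have h3 := cov_symm (isSym_tr ((n : ℤ), (n : ℤ))) b U x y
    rw [e2] at h3
    rw [← h3]
    have mm : ∀ z : ℤ × ℤ, z ∈ U → trF ((n : ℤ), (n : ℤ)) z ∈ rc (2 * n + 1) (2 * n + 1) := by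
      intro z hz
      rw [← e2]
      exact Finset.mem_map_of_mem _ hz
    refine (cov_sq hb hm (mm x hx) (mm y hy)).trans ?_
    have e3 : (trF ((n : ℤ), (n : ℤ))) x - (trF ((n : ℤ), (n : ℤ))) y = x - y := by
      simp [trF]
    rw [e3]
    have e4 : ((max |x.1 - y.1| |x.2 - y.2| : ℤ) : ℝ) = (XY.nm (x - y) : ℝ) := by
      have : (max |x.1 - y.1| |x.2 - y.2| : ℤ) = ((XY.nm (x - y) : ℕ) : ℤ) := by
        unfold XY.nm
        rw [Nat.cast_max, Int.natCast_natAbs, Int.natCast_natAbs]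
        rfl
      rw [this]
      simp
    have e5 : 2 * (XY.nm (x - y) : ℝ) / corrLength b = 2 * mass b * XY.nm (x - y) := by
      unfold corrLength
      rw [div_div_eq_mul_div, div_one]
      ring
    rw [e4, e5]
    refine mul_le_mul_of_nonneg_right ?_ (Real.exp_pos _).le
    unfold corrLength
    exact const_le hm
  · have e0 : (E b U fun h => (h x : ℝ) * (h y : ℝ)) = 0 := by
      unfold D.E
      rw [div_eq_zero_iff]
      left
      rw [← tsum_zero (α := ℝ) (β := Ht U)]
      refine tsum_congr fun h => ?_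
      show D.wt b U 0 h.1 * ((h.1 x : ℝ) * (h.1 y : ℝ)) = 0
      rw [not_and_or] at hxy
      rcases hxy with h1 | h1
      · rw [h.2 x h1]; simp
      · rw [h.2 y h1]; simp
    rw [e0, abs_zero]
    positivity

end Vale.Agent.P159.T1.S.Loc
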